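import Vale.Agent.P208.SysEx
import Vale.Agent.P208.FinalB
import Vale.Agent.P208.FreshL2

namespace Vale.Agent.Results.P208.Counterexample

open Vale.Agent.P208

theorem result :
    ∃ X : Set (lp (fun _ : ℕ => ℝ) 2),
      (∃ lam : ℕ, ∀ x ∈ X, ∀ r : ℝ, 0 < r →
        ∃ G : Finset (lp (fun _ : ℕ => ℝ) 2), (↑G : Set (lp (fun _ : ℕ => ℝ) 2)) ⊆ X ∧
          G.card ≤ lam ∧ X ∩ Metric.closedBall x r ⊆ ⋃ c ∈ G, Metric.ball c (r / 2)) ∧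
      ∀ (k : ℕ) (f : X → EuclideanSpace ℝ (Fin k)) (a D : ℝ), 0 < a →
        ¬ ∀ x y : X, a * dist x y ≤ ‖f x - f y‖ ∧ ‖f x - f y‖ ≤ D * a * dist x y := by
  obtain ⟨τ, hτ, -⟩ := l2_fresh ∅
  obtain ⟨Y, hY⟩ := sys_exists (perp_fresh l2_fresh τ)
  have hι : ∀ y : ↥((Submodule.span ℝ {τ})ᗮ),
      inner ℝ τ (((Submodule.span ℝ {τ})ᗮ).subtypeₗᵢ y) = 0 := by
    intro y
    exact (Submodule.mem_orthogonal _ _).mp y.2 τ (Submodule.mem_span_singleton_self τ)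
  exact ⟨Y.X ((Submodule.span ℝ {τ})ᗮ).subtypeₗᵢ τ, Sys.X_doubling hY _ hτ hι,
    fun k f a D ha => Sys.X_no_embed hY _ hτ hι k f a D ha⟩

end Vale.Agent.Results.P208.Counterexample
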